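import Vale.Agent.P091.Main

namespace Vale.Agent.Results.P091.A_DivSqrtLog

open Real MeasureTheory Filter Asymptotics Vale.Agent.P091

theorem result (φ : ℝ → ℝ) (hmono : MonotoneOn φ (Set.Ici 0)) (h0 : ∀ u, 0 ≤ u → 0 ≤ φ u)
    (ho : φ =o[atTop] fun u => u * √(Real.log u)) :
    ∃ f : ℝ → ℂ, Measurable f ∧ IntegrableOn f (Set.Ioc 0 (2 * π)) ∧
      ∫⁻ x in Set.Ioc 0 (2 * π), ENNReal.ofReal (φ ‖f x‖) < ⊤ ∧
      ∀ᵐ x ∂(volume.restrict (Set.Ioc 0 (2 * π))),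
        ¬ BddAbove (Set.range fun N => ‖fsum f N x‖) :=
  main φ hmono h0 ho

end Vale.Agent.Results.P091.A_DivSqrtLog
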